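import Vale.Agent.Lib.P038.SatK.Shapes.S3_0_0f
noncomputable section
namespace Vale.Agent.Lib.P038.SatK.I.P3_0
open Vale.Agent.Lib.P038.Sat Vale.Agent.Lib.P038.SatK
def W : Nat := 1
def M : Nat := 1
def GT : Nat := 6401
def h0 : T := (T.l (nat_lit 0))
def H : T := h0
theorem hlast : getB H 0 = 0 := by decide +kernel
end Vale.Agent.Lib.P038.SatK.I.P3_0
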